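import Vale.Agent.P166.Final

namespace Vale.Agent.Results.P166.Parisi

open MeasureTheory Filter Topology BoundedContinuousFunction Vale.Agent.P157 Vale.Agent.P166

theorem result (β : ℝ) (hβ : 0 < β) (μ : Measure ℝ) [IsProbabilityMeasure μ]
    (hc : IsCompact μ.support) (lam : ∀ N : ℕ, Fin N → ℝ)
    (hw : ∀ f : ℝ →ᵇ ℝ,
      Tendsto (fun N : ℕ => (N : ℝ)⁻¹ * ∑ i, f (lam N i)) atTop (𝓝 (∫ t, f t ∂μ)))
    (hmin : Tendsto (fun N : ℕ => ⨅ i, lam N i) atTop (𝓝 (sInf μ.support)))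
    (hmax : Tendsto (fun N : ℕ => ⨆ i, lam N i) atTop (𝓝 (sSup μ.support))) :
    (∀ n ζ q, Adm n ζ q → BddAbove (isingObj n ζ q) ∧
      IntervalIntegrable (fun t => Rtr μ (β * dl n ζ q t)) volume 0 1) ∧
    ∃ L : ℝ, IsGLB {y | ∃ n ζ q, Adm n ζ q ∧ y = isingS n ζ q + energyE β μ n ζ q} L ∧
      Tendsto (fun N : ℕ => ∫ U, pressure β (lam N) U ∂(haarO (Fin N))) atTop (𝓝 L) ∧
      ∀ ε : ℝ, 0 < ε →
        Tendsto (fun N : ℕ => haarO (Fin N) {U | ε ≤ |pressure β (lam N) U - L|}) atTop (𝓝 0) := by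
  refine ⟨fun n ζ q h => ⟨isingObj_bdd h, integrable_Rtr hc hβ h⟩, ?_⟩
  obtain ⟨L, h1, h2⟩ := limit hβ hc hw hmin hmax
  exact ⟨L, h1, h2, fun ε hε =>
    conc_pressure hβ.le (lam_range hmin hmax one_pos) h2 hε⟩

end Vale.Agent.Results.P166.Parisi
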